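import Vale.Agent.P207.BlkV0

/-!
# P207: the mean of a seminorm over the unit sphere of a quadratic form
-/

open scoped Manifold ContDiff ENNReal Topology
open Bundle MeasureTheory Set Filter

noncomputable section

namespace Vale.Agent.P207.R2.H327

open Vale.Agent.P207

variable {n : ℕ}

/-- coordinatewise multiplication -/
def dg (t : Fin n → ℝ) : EV n →L[ℝ] EV n :=
  (Matrix.toEuclideanLin (Matrix.diagonal t)).toContinuousLinearMap

theorem dg_apply (t : Fin n → ℝ) (y : EV n) (i : Fin n) : dg t y i = t i * y i := by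
  simp [dg, Matrix.toLpLin_apply, Matrix.mulVec_diagonal]

theorem det_dg (t : Fin n → ℝ) :
    LinearMap.det ((dg t : EV n →L[ℝ] EV n) : EV n →ₗ[ℝ] EV n) = ∏ i, t i := by
  change LinearMap.det (Matrix.toEuclideanLin (Matrix.diagonal t)) = _
  rw [Matrix.toEuclideanLin_eq_toLin_orthonormal, LinearMap.det_toLin, Matrix.det_diagonal]

/-- the reflection in the `j`-th coordinate -/
def rfj (j : Fin n) : EV n ≃ₗᵢ[ℝ] EV n :=
  LinearIsometryEquiv.piLpCongrRight 2 fun i =>
    if i = j then LinearIsometryEquiv.neg ℝ else LinearIsometryEquiv.refl ℝ ℝ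

theorem rfj_apply (j i : Fin n) (y : EV n) : rfj j y i = if i = j then - y i else y i := by
  unfold rfj
  rw [LinearIsometryEquiv.piLpCongrRight_apply]
  by_cases h : i = j <;> simp [h]

/-- a continuous seminorm -/
structure Semi (N : EV n → ℝ) : Prop where
  cont : Continuous N
  add : ∀ v w, N (v + w) ≤ N v + N w
  smul : ∀ (r : ℝ) (v : EV n), N (r • v) = |r| * N v

theorem Semi.nonneg {N : EV n → ℝ} (h : Semi N) (v : EV n) : 0 ≤ N v := by
  have h0 : N 0 = 0 := by
    have := h.smul 0 0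
    simpa using this
  have h1 := h.add v ((-1 : ℝ) • v)
  rw [h.smul, neg_one_smul, add_neg_cancel, h0] at h1
  simp at h1
  exact h1

theorem Semi.bound {N : EV n → ℝ} (h : Semi N) : ∃ C : ℝ, 0 ≤ C ∧ ∀ v, N v ≤ C * ‖v‖ := by
  obtain ⟨C, hC⟩ := (isCompact_sphere (0 : EV n) 1).exists_bound_of_continuousOn
    h.cont.continuousOn
  refine ⟨max C 0, le_max_right _ _, fun v => ?_⟩
  rcases eq_or_ne v 0 with rfl | hv
  · have h0 : N 0 = 0 := by
      have := h.smul 0 0
      simpa using this
    simp [h0]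
  · have hv' : 0 < ‖v‖ := norm_pos_iff.2 hv
    have h1 := hC ((‖v‖)⁻¹ • v) (by
      rw [mem_sphere_zero_iff_norm, norm_smul, norm_inv, norm_norm, inv_mul_cancel₀ hv'.ne'])
    rw [h.smul, abs_of_pos (inv_pos.2 hv'), Real.norm_of_nonneg
      (mul_nonneg (inv_pos.2 hv').le (h.nonneg v)), inv_mul_le_iff₀ hv', mul_comm] at h1
    exact h1.trans (mul_le_mul_of_nonneg_right (le_max_left _ _) hv'.le)

theorem Semi.comp {N : EV n → ℝ} (h : Semi N) (D : EV n →L[ℝ] EV n) : Semi (fun v => N (D v)) :=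
  ⟨h.cont.comp D.continuous, fun v w => by rw [map_add]; exact h.add _ _,
    fun r v => by rw [map_smul]; exact h.smul _ _⟩

/-- the mean of `N` over the unit ball, up to a factor -/
def II (N : EV n → ℝ) : ℝ := ∫ y in Metric.ball (0 : EV n) 1, N y / ‖y‖

theorem Semi.integrable {N : EV n → ℝ} (h : Semi N) :
    IntegrableOn (fun y => N y / ‖y‖) (Metric.ball (0 : EV n) 1) := by
  obtain ⟨C, hC0, hC⟩ := h.bound
  have hfin : IsFiniteMeasure (volume.restrict (Metric.ball (0 : EV n) 1)) :=
    ⟨by rw [Measure.restrict_apply_univ]; exact measure_ball_lt_top⟩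
  refine Integrable.of_bound
    (h.cont.measurable.div continuous_norm.measurable).aestronglyMeasurable C
    (ae_of_all _ fun y => ?_)
  rw [Real.norm_of_nonneg (div_nonneg (h.nonneg y) (norm_nonneg y))]
  rcases eq_or_ne y 0 with rfl | hy
  · simpa using hC0
  · rw [div_le_iff₀ (norm_pos_iff.2 hy)]
    exact hC y

/-- the reflection does not change the mean -/
theorem II_rfj {N : EV n → ℝ} (j : Fin n) : II (fun y => N (rfj j y)) = II N := by
  unfold II
  have h1 := (rfj j).measurePreserving.setIntegral_preimage_emb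
    (rfj j).toHomeomorph.measurableEmbedding (fun y => N y / ‖y‖) (Metric.ball (0 : EV n) 1)
  rw [← h1]
  have h2 : (rfj j) ⁻¹' Metric.ball (0 : EV n) 1 = Metric.ball (0 : EV n) 1 := by
    ext y
    simp
  rw [h2]
  simp

/-- stretching one coordinate -/
theorem II_update {N : EV n → ℝ} (h : Semi N) (t : Fin n → ℝ) (j : Fin n) {r : ℝ} (hr : 1 ≤ r) :
    II (fun y => N (dg (Function.update t j (r * t j)) y)) ≤ r * II (fun y => N (dg t y)) := by
  have hpt : ∀ y : EV n, N (dg (Function.update t j (r * t j)) y) ≤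
      (r + 1) / 2 * N (dg t y) + (r - 1) / 2 * N (dg t (rfj j y)) := by
    intro y
    have h1 : dg (Function.update t j (r * t j)) y =
        ((r + 1) / 2) • dg t y + ((1 - r) / 2) • dg t (rfj j y) := by
      ext i
      rw [PiLp.add_apply, PiLp.smul_apply, PiLp.smul_apply, dg_apply, dg_apply, dg_apply,
        rfj_apply, smul_eq_mul, smul_eq_mul]
      by_cases hi : i = j
      · subst hi
        simp only [Function.update_self, if_true]
        ring
      · simp only [Function.update_of_ne hi, if_neg hi]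
        ring
    rw [h1]
    refine (h.add _ _).trans_eq ?_
    rw [h.smul, h.smul, abs_of_nonneg (by linarith), abs_of_nonpos (by linarith)]
    ring
  have hi1 := (h.comp (dg t)).integrable
  have hs2 : Semi (fun y => N (dg t (rfj j y))) :=
    (h.comp (dg t)).comp (rfj j).toContinuousLinearEquiv.toContinuousLinearMap
  have hi2 := hs2.integrable
  have hi3 := (h.comp (dg (Function.update t j (r * t j)))).integrable
  have h3 : II (fun y => N (dg (Function.update t j (r * t j)) y)) ≤
      ∫ y in Metric.ball (0 : EV n) 1, ((r + 1) / 2 * (N (dg t y) / ‖y‖) +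
        (r - 1) / 2 * (N (dg t (rfj j y)) / ‖y‖)) := by
    refine integral_mono hi3 ((hi1.const_mul _).add (hi2.const_mul _)) fun y => ?_
    have := div_le_div_of_nonneg_right (hpt y) (norm_nonneg y)
    refine this.trans_eq ?_
    ring
  rw [integral_add (hi1.const_mul _) (hi2.const_mul _), integral_const_mul,
    integral_const_mul] at h3
  have h4 : ∫ y in Metric.ball (0 : EV n) 1, N (dg t (rfj j y)) / ‖y‖ =
      ∫ y in Metric.ball (0 : EV n) 1, N (dg t y) / ‖y‖ := II_rfj (N := fun y => N (dg t y)) j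
  rw [h4] at h3
  refine h3.trans_eq ?_
  unfold II
  ring

/-- stretching all coordinates -/
theorem II_dg_le {N : EV n → ℝ} (h : Semi N) {t : Fin n → ℝ} {β : ℝ} (hβ : 0 < β)
    (ht : ∀ i, β ≤ t i) :
    II (fun y => N (dg t y)) ≤ (∏ i, (t i / β)) * (β * II N) := by
  have key : ∀ s : Finset (Fin n),
      II (fun y => N (dg (fun i => if i ∈ s then t i else β) y)) ≤
        (∏ i ∈ s, (t i / β)) * (β * II N) := by
    intro s
    induction s using Finset.induction_on with
    | empty =>
      simp only [Finset.notMem_empty, if_false, Finset.prod_empty, one_mul]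
      have h1 : ∀ y : EV n, N (dg (fun _ => β) y) / ‖y‖ = β * (N y / ‖y‖) := by
        intro y
        have h2 : dg (fun _ => β) y = β • y := by
          ext i
          rw [dg_apply, PiLp.smul_apply, smul_eq_mul]
        rw [h2, h.smul, abs_of_pos hβ, mul_div_assoc]
      unfold II
      simp only [h1]
      rw [integral_const_mul]
    | insert j s hj ih =>
      have h1 : (fun i => if i ∈ insert j s then t i else β) =
          Function.update (fun i => if i ∈ s then t i else β) j
            (t j / β * (fun i => if i ∈ s then t i else β) j) := by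
        funext i
        by_cases hi : i = j
        · subst hi
          simp only [Finset.mem_insert_self, if_true, Function.update_self, if_neg hj]
          rw [div_mul_cancel₀ _ hβ.ne']
        · rw [Function.update_of_ne hi]
          simp [hi]
      rw [h1]
      have hr : 1 ≤ t j / β := (one_le_div hβ).2 (ht j)
      refine (II_update h _ j hr).trans ?_
      rw [Finset.prod_insert hj, mul_assoc]
      exact mul_le_mul_of_nonneg_left ih (by linarith)
  have h2 := key Finset.univ
  simpa using h2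

/-- two positive forms in a common basis -/
theorem exists_common {B B₁ : EV n →L[ℝ] EV n →L[ℝ] ℝ} (hs : ∀ v w, B v w = B w v)
    (hp : ∀ v, v ≠ 0 → 0 < B v v) (hs₁ : ∀ v w, B₁ v w = B₁ w v)
    (hp₁ : ∀ v, v ≠ 0 → 0 < B₁ v v) :
    ∃ (P : EV n →L[ℝ] EV n) (t : Fin n → ℝ), Function.Injective P ∧ (∀ i, 0 < t i) ∧
      (∀ v, B (P v) (P v) = ‖v‖ ^ 2) ∧ ∀ v, B₁ (P (dg t v)) (P (dg t v)) = ‖v‖ ^ 2 := by
  obtain ⟨D, hD, hB⟩ := exists_sqrt_form hs hp
  let De : EV n ≃ₗ[ℝ] EV n := LinearEquiv.ofInjectiveEndo (D : EV n →ₗ[ℝ] EV n) hD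
  let Di : EV n →L[ℝ] EV n := (De.symm : EV n →ₗ[ℝ] EV n).toContinuousLinearMap
  have hDi : ∀ v, D (Di v) = v := fun v => De.apply_symm_apply v
  have hDinj : Function.Injective Di := De.symm.injective
  have hp₂ : ∀ v, v ≠ 0 → 0 < B₁.bilinearComp Di Di v v := by
    intro v hv
    refine hp₁ (Di v) fun h => hv ?_
    rw [← hDi v, h, map_zero]
  obtain ⟨F, hF, hB₂⟩ := exists_sqrt_form (B := B₁.bilinearComp Di Di) (fun v w => hs₁ _ _) hp₂
  have hB₂' : ∀ v w, B₁ (Di v) (Di w) = inner ℝ (F v) (F w) := by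
    intro v w
    exact congrArg (fun C : EV n →L[ℝ] EV n →L[ℝ] ℝ => C v w) hB₂
  let S : EV n →L[ℝ] EV n := (ContinuousLinearMap.adjoint F) ∘L F
  have hSi : ∀ v w, inner ℝ (S v) w = inner ℝ (F v) (F w) := fun v w =>
    ContinuousLinearMap.adjoint_inner_left F w (F v)
  have hS : (S : EV n →ₗ[ℝ] EV n).IsSymmetric := by
    intro v w
    change inner ℝ (S v) w = inner ℝ v (S w)
    rw [hSi, real_inner_comm, ← hSi, real_inner_comm]
  have hfr : Module.finrank ℝ (EV n) = n := finrank_euclideanSpace_fin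
  let w := hS.eigenvectorBasis hfr
  let lam := hS.eigenvalues hfr
  let U : EV n ≃ₗᵢ[ℝ] EV n := w.repr.symm
  let P : EV n →L[ℝ] EV n := Di ∘L (U.toContinuousLinearEquiv : EV n →L[ℝ] EV n)
  have hP : ∀ v, P v = Di (U v) := fun v => rfl
  have hPinj : Function.Injective P := hDinj.comp U.injective
  have h1 : ∀ v, B (P v) (P v) = ‖v‖ ^ 2 := by
    intro v
    rw [hB, hP]
    change inner ℝ (D (Di (U v))) (D (Di (U v))) = _
    rw [hDi, real_inner_self_eq_norm_sq, U.norm_map]
  have h2 : ∀ v, B₁ (P v) (P v) = ∑ i, lam i * v i ^ 2 := by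
    intro v
    rw [hP, hB₂', ← hSi, ← w.repr.inner_map_map, PiLp.inner_apply]
    refine Finset.sum_congr rfl fun i _ => ?_
    have h3 : w.repr (S (U v)) i = lam i * w.repr (U v) i :=
      hS.eigenvectorBasis_apply_self_apply hfr (U v) i
    have h4 : w.repr (U v) = v := w.repr.apply_symm_apply v
    rw [h3, h4]
    simp
    ring
  have hlam : ∀ i, 0 < lam i := by
    intro i
    have h3 := h2 (EuclideanSpace.single i 1)
    have h4 : ∑ k, lam k * (EuclideanSpace.single i (1 : ℝ) : EV n) k ^ 2 = lam i := by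
      rw [Finset.sum_eq_single i]
      · simp
      · intro k _ hk
        simp [hk]
      · simp
    rw [h4] at h3
    rw [← h3]
    refine hp₁ _ fun h => ?_
    have h5 := hPinj (h.trans (map_zero P).symm)
    have h6 := congrArg (fun y : EV n => y i) h5
    simp at h6
  refine ⟨P, fun i => (Real.sqrt (lam i))⁻¹, hPinj, fun i => inv_pos.2 (Real.sqrt_pos.2 (hlam i)),
    h1, fun v => ?_⟩
  rw [h2, EuclideanSpace.norm_sq_eq]
  refine Finset.sum_congr rfl fun i _ => ?_
  rw [dg_apply, mul_pow, inv_pow, Real.sq_sqrt (hlam i).le, ← mul_assoc,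
    mul_inv_cancel₀ (hlam i).ne', one_mul, Real.norm_eq_abs, sq_abs]

/-- integrals over the unit ball of a form -/
theorem integral_ballB_eq {B : EV n →L[ℝ] EV n →L[ℝ] ℝ} {P : EV n →L[ℝ] EV n}
    (hP : Function.Injective P) (h : ∀ v, B (P v) (P v) = ‖v‖ ^ 2) (N : EV n → ℝ) :
    ∫ v in ballB B, N v / Real.sqrt (B v v) =
      |LinearMap.det (P : EV n →ₗ[ℝ] EV n)| * II (fun y => N (P y)) ∧
    volume.real (ballB B) =
      |LinearMap.det (P : EV n →ₗ[ℝ] EV n)| * volume.real (Metric.ball (0 : EV n) 1) := by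
  have hb : P ⁻¹' ballB B = Metric.ball (0 : EV n) 1 := by
    ext v
    change B (P v) (P v) < 1 ↔ _
    rw [h, mem_ball_zero_iff]
    constructor
    · intro h
      nlinarith [norm_nonneg v]
    · intro h
      nlinarith [norm_nonneg v]
  have hd : |LinearMap.det (P : EV n →ₗ[ℝ] EV n)| ≠ 0 :=
    abs_ne_zero.2 (det_ne_zero_of_injective hP)
  have h1 := setIntegral_comp_linear hP (ballB B) (fun v => N v / Real.sqrt (B v v))
  have h2 := setIntegral_comp_linear hP (ballB B) (fun _ => (1 : ℝ))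
  simp only [integral_const, smul_eq_mul, mul_one, measureReal_restrict_apply MeasurableSet.univ,
    univ_inter] at h2
  rw [hb] at h1 h2
  rw [abs_inv] at h1 h2
  constructor
  · unfold II
    have h3 : ∫ y in Metric.ball (0 : EV n) 1, N (P y) / ‖y‖ =
        ∫ v in Metric.ball (0 : EV n) 1, N (P v) / Real.sqrt (B (P v) (P v)) := by
      refine integral_congr_ae (ae_of_all _ fun v => ?_)
      simp only
      rw [h, Real.sqrt_sq (norm_nonneg v)]
    rw [h3, h1, ← mul_assoc, mul_inv_cancel₀ hd, one_mul]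
  · rw [h2, ← mul_assoc, mul_inv_cancel₀ hd, one_mul]

/-- the sharp comparison of the means of a seminorm -/
theorem lin_core (hn : 1 ≤ n) {B B₁ : EV n →L[ℝ] EV n →L[ℝ] ℝ} (hs : ∀ v w, B v w = B w v)
    (hs₁ : ∀ v w, B₁ v w = B₁ w v) {c c₁ : ℝ} (hc : LB B c) (hc₁ : LB B₁ c₁) {N : EV n → ℝ}
    (hN : Continuous N) (hadd : ∀ v w, N (v + w) ≤ N v + N w)
    (hsm : ∀ (r : ℝ) v, N (r • v) = |r| * N v) {b : ℝ} (hb : 0 < b)
    (h : ∀ v, B₁ v v ≤ b ^ 2 * B v v) :
    (∫ v in ballB B₁, N v / Real.sqrt (B₁ v v)) * volume.real (ballB B) ^ 2 ≤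
      b ^ (n - 1) * (∫ v in ballB B, N v / Real.sqrt (B v v)) * volume.real (ballB B₁) ^ 2 := by
  obtain ⟨P, t, hP, ht, h1, h2⟩ := exists_common hs (fun v hv => hc.pos hv) hs₁
    (fun v hv => hc₁.pos hv)
  have hdg : Function.Injective (dg t) := by
    intro x y hxy
    ext i
    have h3 := congrArg (fun z : EV n => z i) hxy
    simp only [dg_apply] at h3
    exact mul_left_cancel₀ (ht i).ne' h3
  have hQ : Function.Injective (P ∘L dg t) := hP.comp hdg
  obtain ⟨e1, e2⟩ := integral_ballB_eq hP h1 N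
  obtain ⟨e3, e4⟩ := integral_ballB_eq (B := B₁) hQ h2 N
  have hdet : |LinearMap.det ((P ∘L dg t : EV n →L[ℝ] EV n) : EV n →ₗ[ℝ] EV n)| =
      |LinearMap.det (P : EV n →ₗ[ℝ] EV n)| * ∏ i, t i := by
    have h3 : ((P ∘L dg t : EV n →L[ℝ] EV n) : EV n →ₗ[ℝ] EV n) =
        (P : EV n →ₗ[ℝ] EV n) ∘ₗ ((dg t : EV n →L[ℝ] EV n) : EV n →ₗ[ℝ] EV n) := rfl
    rw [h3, LinearMap.det_comp, abs_mul, det_dg, abs_of_pos (Finset.prod_pos fun i _ => ht i)]
  have htb : ∀ i, b⁻¹ ≤ t i := by
    intro i
    have h3 := h2 (EuclideanSpace.single i 1)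
    have h4 : dg t (EuclideanSpace.single i 1) = t i • EuclideanSpace.single i (1 : ℝ) := by
      ext k
      rw [dg_apply, PiLp.smul_apply, smul_eq_mul]
      by_cases hk : k = i
      · rw [hk]
      · simp [hk]
    have h5 := h1 (EuclideanSpace.single i 1)
    have h6 := h (P (EuclideanSpace.single i 1))
    rw [h4] at h3
    simp only [map_smul, smul_apply, smul_eq_mul, PiLp.norm_single, norm_one,
      one_pow] at h3 h5
    rw [h5, mul_one] at h6
    have h7 : 1 ≤ (t i * b) ^ 2 := by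
      rw [← h3]
      nlinarith [ht i, mul_pos (ht i) (ht i)]
    have h8 : 1 ≤ t i * b := by
      by_contra hcon
      push Not at hcon
      nlinarith [mul_pos (ht i) hb]
    rw [inv_le_iff_one_le_mul₀ hb]
    exact h8
  have hSemi : Semi (fun y => N (P y)) := (Semi.mk hN hadd hsm).comp P
  have h3 := II_dg_le hSemi (inv_pos.2 hb) htb
  have h4 : (∏ i, (t i / b⁻¹)) * (b⁻¹ * II fun y => N (P y)) =
      b ^ (n - 1) * (∏ i, t i) * II fun y => N (P y) := by
    obtain ⟨k, rfl⟩ : ∃ k, n = k + 1 := ⟨n - 1, by omega⟩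
    simp only [div_inv_eq_mul, Finset.prod_mul_distrib, Finset.prod_const, Finset.card_univ,
      Fintype.card_fin, Nat.add_sub_cancel]
    rw [pow_succ]
    field_simp
  rw [h4] at h3
  rw [e1, e2, e3, e4, hdet]
  have hd : 0 ≤ |LinearMap.det (P : EV n →ₗ[ℝ] EV n)| := abs_nonneg _
  have hp : 0 < ∏ i, t i := Finset.prod_pos fun i _ => ht i
  have h5 : II (fun y => N ((P ∘L dg t) y)) ≤
      b ^ (n - 1) * (∏ i, t i) * II fun y => N (P y) := h3
  set d := |LinearMap.det (P : EV n →ₗ[ℝ] EV n)|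
  set p := ∏ i, t i
  set V := volume.real (Metric.ball (0 : EV n) 1)
  have hV : 0 ≤ V := measureReal_nonneg
  calc d * p * II (fun y => N ((P ∘L dg t) y)) * (d * V) ^ 2
      ≤ d * p * (b ^ (n - 1) * p * II fun y => N (P y)) * (d * V) ^ 2 := by
        gcongr
    _ = b ^ (n - 1) * (d * II fun y => N (P y)) * (d * p * V) ^ 2 := by ring

end Vale.Agent.P207.R2.H327
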